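import Mathlib
import Crest.Prelude.Def_RotationRep

/-! Borel functional calculus of the generator `V` of a rotation pair. -/

set_option autoImplicit false

noncomputable section

namespace Crest.Agent.H2.RP

open MeasureTheory Filter Crest.AnalysisR.RotationRep
open scoped InnerProductSpace ComplexConjugate

abbrev Cir : Type := AddCircle (1 : ℝ)
abbrev mu : Measure Cir := AddCircle.haarAddCircle
abbrev L2 : Type := Lp ℂ 2 mu
abbrev HH : Type := lp (fun _ : ℤ × ℤ => ℂ) 2
abbrev KK : Type := lp (fun _ : ℤ => L2) 2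

/-- basis vectors -/
def dl (a b : ℤ) : HH := lp.single 2 (a, b) (1 : ℂ)

/-- bounded measurable -/
def BM (g : Cir → ℂ) : Prop := Measurable g ∧ ∃ C : ℝ, ∀ x, ‖g x‖ ≤ C

namespace BM

variable {g h : Cir → ℂ}

theorem memLp (hg : BM g) (p : ENNReal) : MemLp g p mu := by
  obtain ⟨hm, C, hC⟩ := hg
  exact (memLp_top_of_bound hm.aestronglyMeasurable C (Eventually.of_forall hC)).mono_exponent le_top

theorem exists_nonneg (hg : BM g) : ∃ C : ℝ, 0 ≤ C ∧ ∀ x, ‖g x‖ ≤ C := by
  obtain ⟨_, C, hC⟩ := hg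
  exact ⟨C, (norm_nonneg _).trans (hC 0), hC⟩

theorem const (c : ℂ) : BM fun _ => c := ⟨measurable_const, ‖c‖, fun _ => le_rfl⟩

theorem mul (hg : BM g) (hh : BM h) : BM fun x => g x * h x := by
  obtain ⟨C, hC0, hC⟩ := hg.exists_nonneg
  obtain ⟨D, _, hD⟩ := hh.exists_nonneg
  exact ⟨hg.1.mul hh.1, C * D, fun x => by
    rw [norm_mul]; exact mul_le_mul (hC x) (hD x) (norm_nonneg _) hC0⟩

theorem add (hg : BM g) (hh : BM h) : BM fun x => g x + h x := by
  obtain ⟨C, _, hC⟩ := hg.exists_nonneg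
  obtain ⟨D, _, hD⟩ := hh.exists_nonneg
  exact ⟨hg.1.add hh.1, C + D, fun x => (norm_add_le _ _).trans (add_le_add (hC x) (hD x))⟩

theorem sub (hg : BM g) (hh : BM h) : BM fun x => g x - h x := by
  obtain ⟨C, _, hC⟩ := hg.exists_nonneg
  obtain ⟨D, _, hD⟩ := hh.exists_nonneg
  exact ⟨hg.1.sub hh.1, C + D, fun x => (norm_sub_le _ _).trans (add_le_add (hC x) (hD x))⟩

theorem star (hg : BM g) : BM fun x => conj (g x) := by
  obtain ⟨C, _, hC⟩ := hg.exists_nonneg
  exact ⟨Complex.continuous_conj.measurable.comp hg.1, C, fun x => by simpa using hC x⟩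

theorem shift (hg : BM g) (s : Cir) : BM fun x => g (x + s) := by
  obtain ⟨C, _, hC⟩ := hg.exists_nonneg
  exact ⟨hg.1.comp (measurable_add_const s), C, fun x => hC _⟩

theorem of_continuous (hg : Continuous g) : BM g :=
  ⟨hg.measurable, ‖(⟨g, hg⟩ : C(Cir, ℂ))‖, fun x => (⟨g, hg⟩ : C(Cir, ℂ)).norm_coe_le_norm x⟩

theorem fourier (n : ℤ) : BM (fourier n : Cir → ℂ) := of_continuous (map_continuous _)

theorem indicator {B : Set Cir} (hB : MeasurableSet B) : BM (B.indicator fun _ => (1 : ℂ)) :=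
  ⟨measurable_const.indicator hB, 1, fun x => by
    by_cases h : x ∈ B <;> simp [h]⟩

end BM

open Classical in
/-- multiplication operator on `L²` of the circle -/
def mult (g : Cir → ℂ) : L2 →L[ℂ] L2 :=
  if h : BM g then (ContinuousLinearMap.lsmul ℂ ℂ).holderL mu ⊤ 2 2 (h.memLp ⊤).toLp else 0

theorem mult_ae {g : Cir → ℂ} (hg : BM g) (f : L2) : mult g f =ᵐ[mu] fun t => g t * f t := by
  rw [mult, dif_pos hg, ContinuousLinearMap.holderL_apply_apply]
  filter_upwards [ContinuousLinearMap.coeFn_holder (r := 2) (ContinuousLinearMap.lsmul ℂ ℂ)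
    (hg.memLp ⊤).toLp f, (hg.memLp ⊤).coeFn_toLp] with x h1 h2
  rw [h1, h2]
  rfl

theorem norm_mult_le {g : Cir → ℂ} (hg : BM g) {C : ℝ} (hC0 : 0 ≤ C) (hC : ∀ᵐ x ∂mu, ‖g x‖ ≤ C) :
    ‖mult g‖ ≤ C := by
  refine ContinuousLinearMap.opNorm_le_bound _ hC0 fun f => ?_
  refine Lp.norm_le_mul_norm_of_ae_le_mul ?_
  filter_upwards [mult_ae hg f, hC] with x h1 h2
  rw [h1, norm_mul]
  exact mul_le_mul_of_nonneg_right h2 (norm_nonneg _)

theorem inner_mult {g : Cir → ℂ} (hg : BM g) (f f' : L2) :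
    ⟪f, mult g f'⟫_ℂ = ∫ t, g t * (conj (f t) * f' t) ∂mu := by
  rw [L2.inner_def]
  refine integral_congr_ae ?_
  filter_upwards [mult_ae hg f'] with x h1
  rw [h1]; simp; ring

theorem inner_mult_left {g : Cir → ℂ} (hg : BM g) (f f' : L2) :
    ⟪mult (fun x => conj (g x)) f, f'⟫_ℂ = ⟪f, mult g f'⟫_ℂ := by
  rw [inner_mult hg, L2.inner_def]
  refine integral_congr_ae ?_
  filter_upwards [mult_ae hg.star f] with x h1
  rw [h1]; simp; ring

/-- the basis of `KK` -/
def bv (i : ℤ × ℤ) : KK := lp.single 2 i.1 (fourierLp 2 i.2)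

theorem bv_orth : Orthonormal ℂ bv := by
  rw [orthonormal_iff_ite]
  intro i j
  rw [bv, bv, lp.inner_single_left, lp.single_apply]
  by_cases h : i.1 = j.1
  · rw [h, Pi.single_eq_same, orthonormal_iff_ite.1 orthonormal_fourier]
    simp [Prod.ext_iff, h]
  · rw [Pi.single_eq_of_ne h, inner_zero_right, if_neg fun e => h (by rw [e])]

theorem bv_total : (Submodule.span ℂ (Set.range bv))ᗮ = ⊥ := by
  rw [eq_bot_iff]
  intro ξ hξ
  rw [Submodule.mem_bot]
  ext1
  funext a
  have h : (fourierBasis (T := 1)).repr (ξ a) = 0 := by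
    ext b
    rw [HilbertBasis.repr_apply_apply, coe_fourierBasis]
    have := hξ (bv (a, b)) (Submodule.subset_span ⟨_, rfl⟩)
    rw [bv, lp.inner_single_left] at this
    simpa using this
  simpa using h

def basisK : HilbertBasis (ℤ × ℤ) ℂ KK := HilbertBasis.mkOfOrthogonalEqBot bv_orth bv_total

/-- the unitary `ℓ²(ℤ; L²(T)) ≃ ℓ²(ℤ × ℤ)` -/
def WW : KK ≃ₗᵢ[ℂ] HH := basisK.repr

theorem WW_symm_dl (a b : ℤ) : WW.symm (dl a b) = lp.single 2 a (fourierLp 2 b) := by
  rw [WW, dl, HilbertBasis.repr_symm_single, basisK, HilbertBasis.coe_mkOfOrthogonalEqBot]; rfl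

theorem WW_single (a b : ℤ) : WW (lp.single 2 a (fourierLp 2 b)) = dl a b := by
  rw [← WW_symm_dl, LinearIsometryEquiv.apply_symm_apply]

/-- rotation of a function -/
def sh (θ : ℝ) (a : ℤ) (g : Cir → ℂ) : Cir → ℂ := fun x => g (x + ((a * θ : ℝ) : Cir))

theorem BM.sh {g : Cir → ℂ} (hg : BM g) (θ : ℝ) (a : ℤ) : BM (sh θ a g) := hg.shift _

open Classical in
def diag (θ : ℝ) (g : Cir → ℂ) : KK →L[ℂ] KK :=
  if h : BM g then lp.mapCLM 2 (fun a => mult (sh θ a g)) h.exists_nonneg.choose_spec.1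
    (fun a => norm_mult_le (h.sh θ a) h.exists_nonneg.choose_spec.1
      (Eventually.of_forall fun _ => h.exists_nonneg.choose_spec.2 _)) else 0

theorem diag_apply (θ : ℝ) {g : Cir → ℂ} (hg : BM g) (ξ : KK) (a : ℤ) :
    diag θ g ξ a = mult (sh θ a g) (ξ a) := by
  rw [diag, dif_pos hg]; rfl

/-- the Borel calculus `g ↦ g(V)` -/
def pi (θ : ℝ) (g : Cir → ℂ) : HH →L[ℂ] HH :=
  WW.toContinuousLinearEquiv.toContinuousLinearMap ∘L diag θ g ∘L
    WW.symm.toContinuousLinearEquiv.toContinuousLinearMap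

theorem pi_apply (θ : ℝ) (g : Cir → ℂ) (x : HH) : pi θ g x = WW (diag θ g (WW.symm x)) := rfl

theorem symm_pi (θ : ℝ) {g : Cir → ℂ} (hg : BM g) (x : HH) (a : ℤ) :
    WW.symm (pi θ g x) a = mult (sh θ a g) (WW.symm x a) := by
  rw [pi_apply, LinearIsometryEquiv.symm_apply_apply, diag_apply θ hg]

theorem symm_pi_ae (θ : ℝ) {g : Cir → ℂ} (hg : BM g) (x : HH) (a : ℤ) :
    WW.symm (pi θ g x) a =ᵐ[mu] fun t => g (t + ((a * θ : ℝ) : Cir)) * WW.symm x a t := by
  rw [symm_pi θ hg]; exact mult_ae (hg.sh θ a) _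

theorem HH_ext {x y : HH} (h : ∀ a, WW.symm x a =ᵐ[mu] WW.symm y a) : x = y := by
  apply WW.symm.injective
  ext1
  funext a
  exact Lp.ext (h a)

theorem op_ext {A B : HH →L[ℂ] HH} (h : ∀ a b, A (dl a b) = B (dl a b)) : A = B := by
  refine lp.ext_continuousLinearMap (by norm_num) fun i => ?_
  ext1
  simpa [dl] using h i.1 i.2

theorem vec_ext {x y : HH} (h : ∀ a b, ⟪dl a b, x⟫_ℂ = ⟪dl a b, y⟫_ℂ) : x = y := by
  ext i
  have := h i.1 i.2
  simpa [dl, lp.inner_single_left] using this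

variable {θ : ℝ} {g h : Cir → ℂ}

theorem pi_mul (hg : BM g) (hh : BM h) : pi θ (fun x => g x * h x) = pi θ g * pi θ h := by
  ext1 x
  refine HH_ext fun a => ?_
  filter_upwards [symm_pi_ae θ (hg.mul hh) x a, symm_pi_ae θ hg (pi θ h x) a,
    symm_pi_ae θ hh x a] with t h1 h2 h3
  rw [h1, ContinuousLinearMap.mul_apply, h2, h3, mul_assoc]

theorem pi_add (hg : BM g) (hh : BM h) : pi θ (fun x => g x + h x) = pi θ g + pi θ h := by
  ext1 x
  refine HH_ext fun a => ?_
  rw [ContinuousLinearMap.add_apply, map_add, lp.coeFn_add, Pi.add_apply]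
  filter_upwards [symm_pi_ae θ (hg.add hh) x a, symm_pi_ae θ hg x a, symm_pi_ae θ hh x a,
    Lp.coeFn_add (WW.symm (pi θ g x) a) (WW.symm (pi θ h x) a)] with t h1 h2 h3 h4
  rw [h1, h4, Pi.add_apply, h2, h3, add_mul]

theorem pi_const (c : ℂ) : pi θ (fun _ => c) = c • (1 : HH →L[ℂ] HH) := by
  ext1 x
  refine HH_ext fun a => ?_
  rw [ContinuousLinearMap.smul_apply, ContinuousLinearMap.one_apply, map_smul, lp.coeFn_smul,
    Pi.smul_apply]
  filter_upwards [symm_pi_ae θ (BM.const c) x a, Lp.coeFn_smul c (WW.symm x a)] with t h1 h2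
  rw [h1, h2]; rfl

theorem pi_one : pi θ (fun _ => 1) = 1 := by rw [pi_const, one_smul]

theorem pi_zero : pi θ (fun _ => 0) = 0 := by rw [pi_const, zero_smul]

theorem pi_smul (c : ℂ) (hg : BM g) : pi θ (fun x => c * g x) = c • pi θ g := by
  rw [pi_mul (BM.const c) hg, pi_const, smul_mul_assoc, one_mul]

theorem pi_sub (hg : BM g) (hh : BM h) : pi θ (fun x => g x - h x) = pi θ g - pi θ h := by
  rw [eq_sub_iff_add_eq, ← pi_add (hg.sub hh) hh]; simp

theorem pi_comm (hg : BM g) (hh : BM h) : pi θ g * pi θ h = pi θ h * pi θ g := by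
  rw [← pi_mul hg hh, ← pi_mul hh hg]; simp [mul_comm]

theorem pi_star (hg : BM g) : pi θ (fun x => conj (g x)) = star (pi θ g) := by
  rw [ContinuousLinearMap.star_eq_adjoint, ContinuousLinearMap.eq_adjoint_iff]
  intro x y
  rw [← WW.symm.inner_map_map, ← WW.symm.inner_map_map x, lp.inner_eq_tsum, lp.inner_eq_tsum]
  refine tsum_congr fun a => ?_
  rw [symm_pi θ hg.star, symm_pi θ hg, ← inner_mult_left (hg.sh θ a)]
  rfl

theorem ae_shift {P : Cir → Prop} (hP : ∀ᵐ x ∂mu, P x) (s : Cir) : ∀ᵐ x ∂mu, P (x + s) :=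
  (measurePreserving_add_right mu s).quasiMeasurePreserving.ae hP

theorem pi_congr_ae (hg : BM g) (hh : BM h) (e : g =ᵐ[mu] h) : pi θ g = pi θ h := by
  ext1 x
  refine HH_ext fun a => ?_
  filter_upwards [symm_pi_ae θ hg x a, symm_pi_ae θ hh x a,
    ae_shift e ((a * θ : ℝ) : Cir)] with t h1 h2 h3
  rw [h1, h2, h3]

theorem norm_pi_le (hg : BM g) {C : ℝ} (hC0 : 0 ≤ C) (hC : ∀ᵐ x ∂mu, ‖g x‖ ≤ C) :
    ‖pi θ g‖ ≤ C := by
  refine ContinuousLinearMap.opNorm_le_bound _ hC0 fun x => ?_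
  have hT : ∀ a : ℤ, ‖mult (sh θ a g)‖ ≤ C := fun a =>
    norm_mult_le (hg.sh θ a) hC0 (ae_shift hC _)
  have e : diag θ g = lp.mapCLM 2 (fun a => mult (sh θ a g)) hC0 hT := by
    ext1 ξ
    ext1
    funext a
    rw [diag_apply θ hg]; rfl
  rw [pi_apply, LinearIsometryEquiv.norm_map, e, ← WW.symm.norm_map x]
  exact ContinuousLinearMap.le_of_opNorm_le _ (lp.norm_mapCLM_le _ _ _ _) _

theorem pi_dl (hg : BM g) (a b : ℤ) :
    pi θ g (dl a b) = WW (lp.single 2 a (mult (sh θ a g) (fourierLp 2 b))) := by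
  rw [pi_apply, WW_symm_dl]
  congr 1
  ext1
  funext k
  rw [diag_apply θ hg, lp.single_apply, lp.single_apply]
  by_cases hk : k = a
  · subst hk; simp
  · simp [Pi.single_eq_of_ne hk]

/-- matrix coefficients -/
theorem inner_pi_dl (hg : BM g) (a b c d : ℤ) : ⟪dl c d, pi θ g (dl a b)⟫_ℂ =
    if c = a then ∫ t, g (t + ((a * θ : ℝ) : Cir)) * fourier (b - d) t ∂mu else 0 := by
  rw [pi_dl hg, ← WW_single, LinearIsometryEquiv.inner_map_map, lp.inner_single_left,
    lp.single_apply]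
  split_ifs with hc
  · subst hc
    rw [Pi.single_eq_same, inner_mult (hg.sh θ c)]
    refine integral_congr_ae ?_
    filter_upwards [coeFn_fourierLp (T := 1) 2 b, coeFn_fourierLp (T := 1) 2 d] with t h1 h2
    rw [h1, h2, ← fourier_neg, ← fourier_add, sh, neg_add_eq_sub]
  · rw [Pi.single_eq_of_ne hc, inner_zero_right]

theorem tau_pi (hg : BM g) : ⟪dl 0 0, pi θ g (dl 0 0)⟫_ℂ = ∫ t, g t ∂mu := by
  rw [inner_pi_dl hg]; simp

theorem pi_fourier_dl (n a b : ℤ) : pi θ (fourier n) (dl a b) =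
    Complex.exp (2 * Real.pi * Complex.I * θ * a * n) • dl a (b + n) := by
  rw [pi_dl (BM.fourier n), ← WW_single, ← map_smul, ← lp.single_smul]
  congr 2
  refine Lp.ext ?_
  filter_upwards [mult_ae ((BM.fourier n).sh θ a) (fourierLp 2 b), coeFn_fourierLp (T := 1) 2 b,
    coeFn_fourierLp (T := 1) 2 (b + n), Lp.coeFn_smul
      (Complex.exp (2 * Real.pi * Complex.I * θ * a * n)) (fourierLp (T := 1) 2 (b + n))]
    with t h1 h2 h3 h4
  rw [h1, h4, Pi.smul_apply, h2, h3, fourier_add, sh, smul_eq_mul]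
  have e : fourier n (t + ((a * θ : ℝ) : Cir)) = fourier n t * fourier n ((a * θ : ℝ) : Cir) := by
    simp only [fourier_apply, smul_add, AddCircle.toCircle_add, Circle.coe_mul]
  rw [e, fourier_coe_apply]
  have : Complex.exp (2 * ↑Real.pi * Complex.I * ↑n * ↑(↑a * θ : ℝ) / ↑(1 : ℝ)) =
      Complex.exp (2 * Real.pi * Complex.I * θ * a * n) := by
    congr 1; push_cast; ring
  rw [this]; ring

variable {U V : HH →L[ℂ] HH}

theorem V_eq (hUV : IsRotationPair θ U V) : V = pi θ (fourier 1) :=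
  op_ext fun a b => by
    rw [pi_fourier_dl, dl, hUV.2]; simp [dl]

theorem inner_dl (a b c d : ℤ) : ⟪dl a b, dl c d⟫_ℂ = if a = c ∧ b = d then 1 else 0 := by
  rw [dl, dl, lp.inner_single_left, lp.single_apply]
  by_cases h : a = c ∧ b = d
  · rw [if_pos h, h.1, h.2]; simp
  · rw [if_neg h, Pi.single_eq_of_ne (by simpa [Prod.ext_iff] using h), inner_zero_right]

theorem U_dl (hUV : IsRotationPair θ U V) (a b : ℤ) : U (dl a b) = dl (a + 1) b := hUV.1 a b

theorem star_U_dl (hUV : IsRotationPair θ U V) (a b : ℤ) : star U (dl a b) = dl (a - 1) b :=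
  vec_ext fun c d => by
    rw [ContinuousLinearMap.star_eq_adjoint, ContinuousLinearMap.adjoint_inner_right, U_dl hUV,
      inner_dl, inner_dl]
    simp only [eq_sub_iff_add_eq]

theorem star_U_mul (hUV : IsRotationPair θ U V) : star U * U = 1 :=
  op_ext fun a b => by
    change star U (U (dl a b)) = dl a b
    rw [U_dl hUV, star_U_dl hUV, add_sub_cancel_right]

theorem U_mul_star (hUV : IsRotationPair θ U V) : U * star U = 1 :=
  op_ext fun a b => by
    change U (star U (dl a b)) = dl a b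
    rw [star_U_dl hUV, U_dl hUV, sub_add_cancel]

theorem U_unitary (hUV : IsRotationPair θ U V) : U ∈ unitary (HH →L[ℂ] HH) :=
  ⟨star_U_mul hUV, U_mul_star hUV⟩

/-- covariance: `g(V) U = U g(· + θ)(V)` -/
theorem pi_mul_U (hUV : IsRotationPair θ U V) (hg : BM g) :
    pi θ g * U = U * pi θ (fun x => g (x + (θ : Cir))) :=
  op_ext fun a b => vec_ext fun c d => by
    change ⟪dl c d, pi θ g (U (dl a b))⟫_ℂ = ⟪dl c d, U (pi θ _ (dl a b))⟫_ℂ
    rw [← ContinuousLinearMap.adjoint_inner_left U, ← ContinuousLinearMap.star_eq_adjoint,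
      star_U_dl hUV, U_dl hUV, inner_pi_dl hg, inner_pi_dl (hg.shift _)]
    simp only [sub_eq_iff_eq_add]
    congr 3
    funext t
    rw [add_assoc, ← AddCircle.coe_add]; push_cast; rw [add_mul, one_mul]

theorem star_U_pi_U (hUV : IsRotationPair θ U V) (hg : BM g) :
    star U * pi θ g * U = pi θ (fun x => g (x + (θ : Cir))) := by
  rw [mul_assoc, pi_mul_U hUV hg, ← mul_assoc, star_U_mul hUV, one_mul]

theorem U_pi_star_U (hUV : IsRotationPair θ U V) (hg : BM g) :
    U * pi θ g * star U = pi θ (fun x => g (x - (θ : Cir))) := by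
  have hg' : BM fun x => g (x - (θ : Cir)) := by simpa [sub_eq_add_neg] using hg.shift (-(θ : Cir))
  have := pi_mul_U hUV hg'
  simp only [add_sub_cancel_right] at this
  rw [← this, mul_assoc, U_mul_star hUV, mul_one]

theorem pi_fourier_add (m n : ℤ) :
    pi θ (fourier (m + n)) = pi θ (fourier m) * pi θ (fourier n) := by
  rw [← pi_mul (BM.fourier m) (BM.fourier n)]
  congr 1; funext x; exact fourier_add

theorem pi_fourier_neg (n : ℤ) : pi θ (fourier (-n)) = star (pi θ (fourier n)) := by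
  rw [← pi_star (BM.fourier n)]
  congr 1; funext x; exact fourier_neg

theorem pi_fourier_zero : pi θ (fourier 0) = 1 := by
  rw [← pi_one (θ := θ)]; congr 1; funext x; exact fourier_zero

theorem comm_fourier {A : HH →L[ℂ] HH} (h1 : pi θ (fourier 1) * A = A * pi θ (fourier 1))
    (h2 : star (pi θ (fourier 1)) * A = A * star (pi θ (fourier 1))) (n : ℤ) :
    pi θ (fourier n) * A = A * pi θ (fourier n) := by
  induction n using Int.induction_on with
  | zero => rw [pi_fourier_zero, one_mul, mul_one]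
  | succ n ih => rw [pi_fourier_add, mul_assoc, h1, ← mul_assoc, ih, mul_assoc]
  | pred n ih =>
    rw [sub_eq_add_neg, pi_fourier_add, pi_fourier_neg 1, mul_assoc, h2, ← mul_assoc, ih,
      mul_assoc]

/-- Fourier expansion on basis vectors -/
theorem hasSum_pi_dl (hg : BM g) (a b : ℤ) :
    HasSum (fun n : ℤ => fourierCoeff g n • pi θ (fourier n) (dl a b)) (pi θ g (dl a b)) := by
  have hmp := measurePreserving_add_right mu ((a * θ : ℝ) : Cir)
  let Φ : L2 →L[ℂ] HH := WW.toContinuousLinearEquiv.toContinuousLinearMap ∘L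
    (lp.singleContinuousLinearMap ℂ (fun _ : ℤ => L2) 2 a) ∘L mult (fourier b) ∘L
      (Lp.compMeasurePreservingₗᵢ ℂ _ hmp).toContinuousLinearMap
  have key : ∀ (h : Cir → ℂ) (f : L2), BM h → f =ᵐ[mu] h → Φ f = pi θ h (dl a b) := by
    intro h f hh e
    rw [pi_dl hh]
    change WW (lp.single 2 a (mult (fourier b) (Lp.compMeasurePreserving _ hmp f))) = _
    congr 2
    refine Lp.ext ?_
    filter_upwards [mult_ae (BM.fourier b) (Lp.compMeasurePreserving _ hmp f),
      Lp.coeFn_compMeasurePreserving f hmp, ae_shift e ((a * θ : ℝ) : Cir),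
      mult_ae (hh.sh θ a) (fourierLp 2 b), coeFn_fourierLp (T := 1) 2 b] with t h1 h2 h3 h4 h5
    rw [h1, h2, h4, h5, Function.comp_apply, h3, mul_comm]; rfl
  have h1 := (hasSum_fourier_series_L2 (hg.memLp 2).toLp).mapL Φ
  rw [key g _ hg (hg.memLp 2).coeFn_toLp] at h1
  convert h1 using 2 with n
  rw [map_smul, key _ _ (BM.fourier n) (coeFn_fourierLp 2 n),
    fourierCoeff_congr_ae (hg.memLp 2).coeFn_toLp]

theorem fourierCoeff_conj (g : Cir → ℂ) (n : ℤ) :
    fourierCoeff (fun x => conj (g x)) (-n) = conj (fourierCoeff g n) := by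
  rw [fourierCoeff, fourierCoeff, ← integral_conj]
  congr 1; funext t
  rw [neg_neg, smul_eq_mul, smul_eq_mul, map_mul, fourier_neg, Complex.conj_conj]

/-- an operator commuting with `V, V*` commutes with every `g(V)` -/
theorem comm_pi {A : HH →L[ℂ] HH} (hA : ∀ n, pi θ (fourier n) * A = A * pi θ (fourier n))
    (hg : BM g) : pi θ g * A = A * pi θ g :=
  op_ext fun a b => vec_ext fun c d => by
    have h1 := ((hasSum_pi_dl (θ := θ) hg a b).mapL A).mapL (innerSL ℂ (dl c d))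
    have h2 := (hasSum_pi_dl (θ := θ) hg.star c d).mapL (innerSL ℂ (A (dl a b)))
    have h3 := (Equiv.neg ℤ).hasSum_iff.2 (Complex.hasSum_conj'.2 h2)
    have e : ⟪dl c d, (pi θ g * A) (dl a b)⟫_ℂ =
        conj (innerSL ℂ (A (dl a b)) (pi θ (fun x => conj (g x)) (dl c d))) := by
      rw [innerSL_apply_apply, inner_conj_symm, pi_star hg, ContinuousLinearMap.star_eq_adjoint,
        ContinuousLinearMap.adjoint_inner_left]; rfl
    rw [e]
    refine h3.unique ?_
    refine h1.congr_fun fun n => ?_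
    simp only [Function.comp_apply, Equiv.neg_apply, innerSL_apply_apply, map_smul, smul_eq_mul,
      map_mul, fourierCoeff_conj, Complex.conj_conj, inner_conj_symm]
    rw [pi_fourier_neg, ContinuousLinearMap.star_eq_adjoint,
      ContinuousLinearMap.adjoint_inner_left]
    congr 2
    exact DFunLike.congr_fun (hA n) (dl a b)

theorem pi_mem (hUV : IsRotationPair θ U V) (hg : BM g) : pi θ g ∈ vonNeumannGenerated {U, V} := by
  intro A hA
  refine (comm_pi (comm_fourier ?_ ?_) hg).symm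
  · rw [← V_eq hUV]; exact hA V (Or.inl (by simp))
  · rw [← V_eq hUV]; exact hA _ (Or.inr ⟨V, by simp, rfl⟩)

/-- `pi` on continuous functions as a star homomorphism -/
def piHom (θ : ℝ) : C(Cir, ℂ) →⋆ₐ[ℂ] (HH →L[ℂ] HH) where
  toFun g := pi θ g
  map_one' := pi_one
  map_mul' g h := pi_mul (BM.of_continuous g.2) (BM.of_continuous h.2)
  map_zero' := pi_zero
  map_add' g h := pi_add (BM.of_continuous g.2) (BM.of_continuous h.2)
  commutes' c := by rw [Algebra.algebraMap_eq_smul_one c (A := HH →L[ℂ] HH)]; exact pi_const c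
  map_star' g := pi_star (BM.of_continuous g.2)

theorem cfc_V (hUV : IsRotationPair θ U V) {F : ℂ → ℂ} (hF : Continuous F) :
    cfc F V = pi θ (fun t => F (fourier 1 t)) := by
  have h1 : V = piHom θ (fourier 1) := V_eq hUV
  have hc : Continuous (piHom θ) :=
    AddMonoidHomClass.continuous_of_bound (piHom θ) 1 fun g => by
      rw [one_mul]
      exact norm_pi_le (BM.of_continuous g.2) (norm_nonneg _)
        (Eventually.of_forall g.norm_coe_le_norm)
  have h2 : cfc F (fourier 1 : C(Cir, ℂ)) = (⟨F, hF⟩ : C(ℂ, ℂ)).comp (fourier 1) := by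
    ext t
    have := StarAlgHom.map_cfc (ContinuousMap.evalStarAlgHom ℂ ℂ t) F (fourier 1 : C(Cir, ℂ))
    have h3 := cfc_algebraMap (A := ℂ) (fourier 1 t) F
    exact this.trans h3
  rw [h1, ← StarAlgHom.map_cfc (piHom θ) F _ hF.continuousOn hc, h2]
  rfl

end Crest.Agent.H2.RP
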