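import Crest.Agent.H2.RP.Mult

/-! The kernel measure `nu x` on `Cir × ℤ` of an operator commuting with the right multipliers. -/

set_option autoImplicit false

noncomputable section

namespace Crest.Agent.H2.RP

open MeasureTheory Filter
open scoped InnerProductSpace ComplexConjugate ENNReal

/-- `n`-th Fourier coefficient (a function on the circle) of an operator -/
def kx (x : HH →L[ℂ] HH) (n : ℤ) : Cir → ℂ := WW.symm (x (dl 0 0)) n

theorem meas_kx (x : HH →L[ℂ] HH) (n : ℤ) : Measurable (kx x n) :=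
  (Lp.stronglyMeasurable _).measurable

theorem meas_kx2 (x : HH →L[ℂ] HH) : Measurable fun z : Cir × ℤ => kx x z.2 z.1 :=
  measurable_from_prod_countable_left fun n => meas_kx x n

/-- the kernel measure: mass `|x_n(t)|²` at the pair `(t, n)` (source `t`, target `t + nθ`) -/
def nu (x : HH →L[ℂ] HH) : Measure (Cir × ℤ) :=
  (mu.prod Measure.count).withDensity fun z => ‖kx x z.2 z.1‖ₑ ^ 2

/-- the target point -/
def tg (θ : ℝ) (z : Cir × ℤ) : Cir := z.1 + ((z.2 * θ : ℝ) : Cir)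

theorem meas_tg (θ : ℝ) : Measurable (tg θ) :=
  measurable_from_prod_countable_left fun n => measurable_add_const ((n * θ : ℝ) : Cir)

/-- commutes with the right multipliers -/
def RC (x : HH →L[ℂ] HH) : Prop := ∀ h, BM h → pi 0 h * x = x * pi 0 h

theorem L2_norm_sq (f : L2) : ENNReal.ofReal (‖f‖ ^ 2) = ∫⁻ t, ‖f t‖ₑ ^ 2 ∂mu := by
  have h := eLpNorm_nnreal_pow_eq_lintegral (f := (f : Cir → ℂ)) (μ := mu) (p := 2) (by norm_num)
  rw [ENNReal.ofReal_pow (norm_nonneg _), Lp.norm_def,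
    ENNReal.ofReal_toReal (Lp.eLpNorm_ne_top f)]
  simpa using h

theorem norm_sq_eq (y : HH) :
    ENNReal.ofReal (‖y‖ ^ 2) = ∑' n : ℤ, ∫⁻ t, ‖WW.symm y n t‖ₑ ^ 2 ∂mu := by
  have h := lp.hasSum_norm (p := 2) (by norm_num) (WW.symm y)
  simp only [ENNReal.toReal_ofNat, Real.rpow_ofNat, LinearIsometryEquiv.norm_map] at h
  rw [← h.tsum_eq, ENNReal.ofReal_tsum_of_nonneg (fun _ => by positivity) h.summable]
  exact tsum_congr fun n => L2_norm_sq _

theorem lintegral_nu (x : HH →L[ℂ] HH) {w : Cir × ℤ → ℝ≥0∞} (hw : Measurable w) :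
    ∫⁻ z, w z ∂nu x = ∑' n : ℤ, ∫⁻ t, ‖kx x n t‖ₑ ^ 2 * w (t, n) ∂mu := by
  rw [nu, lintegral_withDensity_eq_lintegral_mul _ ((meas_kx2 x).enorm.pow_const 2) hw,
    lintegral_prod_symm _ (((meas_kx2 x).enorm.pow_const 2).mul hw).aemeasurable, lintegral_count]
  rfl

theorem nu_univ (x : HH →L[ℂ] HH) : nu x Set.univ = ENNReal.ofReal (‖x (dl 0 0)‖ ^ 2) := by
  rw [← lintegral_one, lintegral_nu x measurable_const, norm_sq_eq]
  simp [kx]

instance (x : HH →L[ℂ] HH) : IsFiniteMeasure (nu x) := ⟨by rw [nu_univ]; exact ENNReal.ofReal_lt_top⟩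

variable {θ : ℝ} {g h : Cir → ℂ} {x : HH →L[ℂ] HH}

theorem pi_dl_zero (hh : BM h) : pi θ h (dl 0 0) = pi 0 h (dl 0 0) := by
  rw [pi_dl hh, pi_dl hh]
  have : sh θ 0 h = sh 0 0 h := by funext t; simp [sh]
  rw [this]

theorem kx_pi_mul (hg : BM g) (x : HH →L[ℂ] HH) (n : ℤ) :
    kx (pi θ g * x) n =ᵐ[mu] fun t => g (tg θ (t, n)) * kx x n t :=
  symm_pi_ae θ hg (x (dl 0 0)) n

theorem kx_mul_pi (hx : RC x) (hh : BM h) (n : ℤ) :
    kx (x * pi θ h) n =ᵐ[mu] fun t => h t * kx x n t := by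
  have e : (x * pi θ h) (dl 0 0) = pi 0 h (x (dl 0 0)) := by
    change x (pi θ h (dl 0 0)) = _
    rw [pi_dl_zero hh]
    exact (DFunLike.congr_fun (hx h hh) (dl 0 0)).symm
  rw [kx, e]
  simpa [kx] using symm_pi_ae 0 hh (x (dl 0 0)) n

theorem kx_pi_pi (hx : RC x) (hg : BM g) (hh : BM h) (n : ℤ) :
    kx (pi θ g * x * pi θ h) n =ᵐ[mu] fun t => g (tg θ (t, n)) * h t * kx x n t := by
  rw [mul_assoc]
  filter_upwards [kx_pi_mul (θ := θ) hg (x * pi θ h) n, kx_mul_pi (θ := θ) hx hh n] with t h1 h2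
  rw [h1, h2, mul_assoc]

/-- main identity -/
theorem norm_pi_pi (hx : RC x) (hg : BM g) (hh : BM h) :
    ENNReal.ofReal (‖(pi θ g * x * pi θ h) (dl 0 0)‖ ^ 2) =
      ∫⁻ z, ‖g (tg θ z) * h z.1‖ₑ ^ 2 ∂nu x := by
  have hm : Measurable fun z : Cir × ℤ => ‖g (tg θ z) * h z.1‖ₑ ^ 2 :=
    ((hg.1.comp (meas_tg θ)).mul (hh.1.comp measurable_fst)).enorm.pow_const 2
  rw [lintegral_nu x hm, norm_sq_eq]
  refine tsum_congr fun n => lintegral_congr_ae ?_
  filter_upwards [kx_pi_pi (θ := θ) hx hg hh n] with t h1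
  rw [show WW.symm ((pi θ g * x * pi θ h) (dl 0 0)) n t = _ from h1, enorm_mul _ (kx x n t),
    mul_pow, mul_comm]

/-- indicator of a set as a complex function -/
def ind (A : Set Cir) : Cir → ℂ := A.indicator fun _ => 1

theorem BM.ind {A : Set Cir} (hA : MeasurableSet A) : BM (ind A) := BM.indicator hA

theorem meas_pair (θ : ℝ) {A B : Set Cir} (hA : MeasurableSet A) (hB : MeasurableSet B) :
    MeasurableSet {z : Cir × ℤ | z.1 ∈ A ∧ tg θ z ∈ B} :=
  (measurable_fst hA).inter (meas_tg θ hB)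

theorem nu_pair (hx : RC x) {A B : Set Cir} (hA : MeasurableSet A) (hB : MeasurableSet B) :
    (nu x).real {z | z.1 ∈ A ∧ tg θ z ∈ B} =
      ‖(pi θ (ind B) * x * pi θ (ind A)) (dl 0 0)‖ ^ 2 := by
  have h1 := norm_pi_pi (θ := θ) hx (BM.ind hB) (BM.ind hA)
  have h2 : nu x {z | z.1 ∈ A ∧ tg θ z ∈ B} = ∫⁻ z, ‖ind B (tg θ z) * ind A z.1‖ₑ ^ 2 ∂nu x := by
    rw [← lintegral_indicator_one (meas_pair θ hA hB)]
    refine lintegral_congr fun z => ?_
    by_cases ha : z.1 ∈ A <;> by_cases hb : tg θ z ∈ B <;> simp [ind, Set.indicator, ha, hb]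
  rw [Measure.real, h2, ← h1, ENNReal.toReal_ofReal (by positivity)]

theorem norm_dl : ‖dl 0 0‖ = 1 := by
  have := inner_dl 0 0 0 0
  rw [inner_self_eq_norm_sq_to_K] at this
  simp only [and_self, if_true] at this
  have h3 : ((‖dl 0 0‖ ^ 2 : ℝ) : ℂ) = (1 : ℝ) := by simpa using this
  have h2 : ‖dl 0 0‖ ^ 2 = 1 := by exact_mod_cast h3
  nlinarith [norm_nonneg (dl 0 0)]

theorem pi_ind_proj {A : Set Cir} (hA : MeasurableSet A) : IsStarProjection (pi θ (ind A)) := by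
  refine ⟨?_, ?_⟩
  · change pi θ (ind A) * pi θ (ind A) = _
    rw [← pi_mul (BM.ind hA) (BM.ind hA)]
    congr 1; funext t; by_cases h : t ∈ A <;> simp [ind, h]
  · change star _ = _
    rw [← pi_star (BM.ind hA)]
    congr 1; funext t; by_cases h : t ∈ A <;> simp [ind, h]

theorem pi_ind_compl {A : Set Cir} (hA : MeasurableSet A) :
    pi θ (ind Aᶜ) = 1 - pi θ (ind A) := by
  rw [← pi_one (θ := θ), ← pi_sub (BM.const 1) (BM.ind hA)]
  congr 1; funext t; by_cases h : t ∈ A <;> simp [ind, h]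

theorem pi_ind_univ : pi θ (ind Set.univ) = 1 := by
  rw [← pi_one (θ := θ)]; congr 1; funext t; simp [ind]

theorem norm_pi_ind_dl {A : Set Cir} (hA : MeasurableSet A) :
    ‖pi θ (ind A) (dl 0 0)‖ ^ 2 = mu.real A := by
  have h1 := tau_pi (θ := θ) (BM.ind hA)
  have h2 : ⟪dl 0 0, pi θ (ind A) (dl 0 0)⟫_ℂ =
      ⟪pi θ (ind A) (dl 0 0), pi θ (ind A) (dl 0 0)⟫_ℂ := by
    conv_lhs => rw [← (pi_ind_proj (θ := θ) hA).isIdempotentElem.eq]
    rw [← ContinuousLinearMap.adjoint_inner_right, ← ContinuousLinearMap.star_eq_adjoint,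
      (pi_ind_proj (θ := θ) hA).isSelfAdjoint.star_eq]; rfl
  rw [h2, inner_self_eq_norm_sq_to_K, ind, integral_indicator_const _ hA] at h1
  have h3 : ((‖pi θ (A.indicator fun _ => (1 : ℂ)) (dl 0 0)‖ ^ 2 : ℝ) : ℂ) = (mu.real A : ℝ) := by
    simpa using h1
  exact_mod_cast h3

/-- source marginal -/
theorem nu_src_le (hx : RC x) (hn : ‖x‖ ≤ 1) {A : Set Cir} (hA : MeasurableSet A) :
    (nu x).real {z | z.1 ∈ A} ≤ mu.real A := by
  have h := nu_pair (θ := 0) hx hA MeasurableSet.univ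
  simp only [Set.mem_univ, and_true] at h
  rw [h, pi_ind_univ, one_mul, ← norm_pi_ind_dl (θ := 0) hA]
  refine pow_le_pow_left₀ (norm_nonneg _) ?_ 2
  exact (x.le_opNorm _).trans (mul_le_of_le_one_left (norm_nonneg _) hn)

/-- the diagonal operator has only a zeroth coefficient -/
theorem kx_pi (hh : BM h) (n : ℤ) :
    kx (pi θ h) n =ᵐ[mu] fun t => if n = 0 then h t else 0 := by
  rw [kx, pi_dl hh, LinearIsometryEquiv.symm_apply_apply, lp.single_apply]
  by_cases hn : n = 0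
  · subst hn
    rw [Pi.single_eq_same]
    filter_upwards [mult_ae (hh.sh θ 0) (fourierLp 2 0), coeFn_fourierLp (T := 1) 2 0] with t h1 h2
    rw [h1, h2]; simp [sh]
  · rw [Pi.single_eq_of_ne hn]
    simp only [hn, if_false]
    exact Lp.coeFn_zero ℂ 2 mu

theorem kx_sub (x y : HH →L[ℂ] HH) (n : ℤ) :
    kx (x - y) n =ᵐ[mu] fun t => kx x n t - kx y n t := by
  have e : WW.symm ((x - y) (dl 0 0)) n = WW.symm (x (dl 0 0)) n - WW.symm (y (dl 0 0)) n := by
    rw [ContinuousLinearMap.sub_apply, map_sub, lp.coeFn_sub, Pi.sub_apply]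
  rw [kx, e]
  exact Lp.coeFn_sub _ _

/-- `τ(x π(h)) = ∫ x₀ h` -/
theorem tau_mul_pi (hx : RC x) (hh : BM h) :
    ⟪dl 0 0, (x * pi θ h) (dl 0 0)⟫_ℂ = ∫ t, h t * kx x 0 t ∂mu := by
  rw [← WW.symm.inner_map_map, WW_symm_dl, lp.inner_single_left, L2.inner_def]
  refine integral_congr_ae ?_
  filter_upwards [kx_mul_pi (θ := θ) hx hh 0, coeFn_fourierLp (T := 1) 2 0] with t h1 h2
  rw [h2, show WW.symm ((x * pi θ h) (dl 0 0)) 0 t = _ from h1]; simp

/-- off-diagonal mass -/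
theorem nu_offdiag {ρ : Cir → ℂ} (hρ : BM ρ) (e : kx x 0 =ᵐ[mu] ρ) :
    (nu x).real {z | z.2 ≠ 0} = ‖(x - pi θ ρ) (dl 0 0)‖ ^ 2 := by
  have hm : MeasurableSet {z : Cir × ℤ | z.2 ≠ 0} :=
    measurable_snd (MeasurableSet.of_discrete (s := {n : ℤ | n ≠ 0}))
  rw [Measure.real, ← lintegral_indicator_one hm, lintegral_nu x (measurable_one.indicator hm),
    ← ENNReal.toReal_ofReal (show 0 ≤ ‖(x - pi θ ρ) (dl 0 0)‖ ^ 2 by positivity), norm_sq_eq]
  congr 1
  refine tsum_congr fun n => lintegral_congr_ae ?_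
  filter_upwards [kx_sub x (pi θ ρ) n, kx_pi (θ := θ) hρ n, e] with t h1 h2 h3
  rw [show WW.symm ((x - pi θ ρ) (dl 0 0)) n t = _ from h1, h2]
  by_cases hn : n = 0
  · subst hn; simp [h3]
  · simp [hn]

/-- target marginal (uses `‖y δ₀‖ = ‖y* δ₀‖`, i.e. the trace property, for `y = 1_B x`) -/
theorem nu_tg_le (hx : RC x) (hn : ‖x‖ ≤ 1) {B : Set Cir} (hB : MeasurableSet B)
    (hst : ‖(pi θ (ind B) * x) (dl 0 0)‖ = ‖(star (pi θ (ind B) * x)) (dl 0 0)‖) :
    (nu x).real {z | tg θ z ∈ B} ≤ mu.real B := by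
  have h := nu_pair (θ := θ) hx MeasurableSet.univ hB
  simp only [Set.mem_univ, true_and] at h
  rw [h, pi_ind_univ, mul_one, hst, star_mul, (pi_ind_proj (θ := θ) hB).isSelfAdjoint.star_eq,
    ← norm_pi_ind_dl (θ := θ) hB]
  refine pow_le_pow_left₀ (norm_nonneg _) ?_ 2
  exact ((star x).le_opNorm _).trans
    (mul_le_of_le_one_left (norm_nonneg _) ((norm_star x).le.trans hn))

theorem RC.pi (hg : BM g) : RC (pi θ g) := fun h hh => by
  ext1 y
  refine HH_ext fun a => ?_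
  filter_upwards [symm_pi_ae 0 hh (RP.pi θ g y) a, symm_pi_ae θ hg y a,
    symm_pi_ae θ hg (RP.pi 0 h y) a, symm_pi_ae 0 hh y a] with t h1 h2 h3 h4
  change WW.symm (RP.pi 0 h (RP.pi θ g y)) a t = WW.symm (RP.pi θ g (RP.pi 0 h y)) a t
  rw [h1, h2, h3, h4]; ring

/-- covering by finitely many rectangles with weights -/
theorem nu_cover {ι : Type*} (s : Finset ι) (hx : RC x) {A B : ι → Set Cir}
    (hA : ∀ i, MeasurableSet (A i)) (hB : ∀ i, MeasurableSet (B i)) {W : Set (Cir × ℤ)} {c : ℝ}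
    (hc : 0 < c) [∀ z : Cir × ℤ, DecidablePred fun i => z.1 ∈ A i ∧ tg θ z ∈ B i]
    (hW : ∀ z ∈ W, c ≤ (s.filter fun i => z.1 ∈ A i ∧ tg θ z ∈ B i).card) :
    c * (nu x).real W ≤ ∑ i ∈ s, ‖(pi θ (ind (B i)) * x * pi θ (ind (A i))) (dl 0 0)‖ ^ 2 := by
  classical
  set P : ι → Set (Cir × ℤ) := fun i => {z | z.1 ∈ A i ∧ tg θ z ∈ B i} with hP
  have hPm : ∀ i, MeasurableSet (P i) := fun i => meas_pair θ (hA i) (hB i)
  set F : Cir × ℤ → ℝ := fun z => ∑ i ∈ s, (P i).indicator 1 z with hF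
  have hint : ∀ i, Integrable ((P i).indicator (1 : Cir × ℤ → ℝ)) (nu x) := fun i =>
    (integrable_const (1 : ℝ)).indicator (hPm i)
  have hFi : Integrable F (nu x) := integrable_finset_sum _ fun i _ => hint i
  have hF0 : 0 ≤ᵐ[nu x] F := Eventually.of_forall fun z =>
    Finset.sum_nonneg fun i _ => Set.indicator_nonneg (fun _ _ => zero_le_one) _
  have h1 := mul_meas_ge_le_integral_of_nonneg hF0 hFi c
  have h2 : ∫ z, F z ∂nu x =
      ∑ i ∈ s, ‖(pi θ (ind (B i)) * x * pi θ (ind (A i))) (dl 0 0)‖ ^ 2 := by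
    rw [hF, integral_finset_sum _ fun i _ => hint i]
    exact Finset.sum_congr rfl fun i _ => by
      rw [integral_indicator_one (hPm i), nu_pair hx (hA i) (hB i)]
  rw [← h2]
  refine le_trans (mul_le_mul_of_nonneg_left (measureReal_mono fun z hz => ?_) hc.le) h1
  refine (hW z hz).trans (le_of_eq ?_)
  rw [hF, Finset.card_filter]
  push_cast
  exact Finset.sum_congr rfl fun i _ => by simp [hP, Set.indicator]

end Crest.Agent.H2.RP
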